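import Crest.Agent.R264.Lie.Cartan

set_option autoImplicit false
set_option linter.unusedSectionVars false
open Set Filter Topology Metric Complex

namespace Crest.Agent.R264

variable {E F G : Type}
  [NormedAddCommGroup E] [NormedSpace ℂ E] [NormedSpace ℝ E] [IsScalarTower ℝ ℂ E] [FiniteDimensional ℂ E]
  [NormedAddCommGroup F] [NormedSpace ℂ F] [NormedSpace ℝ F] [IsScalarTower ℝ ℂ F] [FiniteDimensional ℂ F]
  [NormedAddCommGroup G] [NormedSpace ℂ G] [NormedSpace ℝ G] [IsScalarTower ℝ ℂ G] [FiniteDimensional ℂ G]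

theorem kos_Dv_der {X : Set E} {W : E → E} (hW : VF X W) {f g : E → F} {x v : E} (hx : x ∈ X)
    (hg : AnalyticAt ℂ g x) (h : f =ᶠ[𝓝[X] x] g) (hv : v ∈ Tan X x) :
    Dv X (der X W f) x v = fderiv ℂ (fderiv ℂ g) x v (W x) + fderiv ℂ g x (Dv X W x v) := by
  obtain ⟨W', hW', e⟩ := (anW_iff hx).1 (hW.an x hx)
  have e1 : der X W f =ᶠ[𝓝[X] x] fun y => fderiv ℂ g y (W' y) := by
    filter_upwards [e, self_mem_nhdsWithin, eventually_eventually_nhdsWithin.2 h,
      nhdsWithin_le_nhds hg.eventually_analyticAt] with y h1 h2 h3 h4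
    rw [← h1]
    exact Dv_eq_fderiv h2 h4.differentiableAt h3 (hW.tan y h2)
  rw [Dv_eq_fderiv hx (hg.fderiv.differentiableAt.clm_apply hW'.differentiableAt) e1 hv,
    Dv_eq_fderiv hx hW'.differentiableAt e hv, fderiv_clm_apply hg.fderiv.differentiableAt hW'.differentiableAt,
    e.eq_of_nhdsWithin hx, add_comm]
  rfl

theorem kos_Dv_zero {X : Set E} {W : E → E} (hW : VF X W) {f : E → F} (hf : AnalyticOn ℂ f X) {x v : E} (hx : x ∈ X)
    (h0 : W x = 0) (hv : v ∈ Tan X x) (hv' : Dv X W x v ∈ Tan X x) :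
    Dv X (der X W f) x v = Dv X f x (Dv X W x v) := by
  obtain ⟨g, hg, e⟩ := (anW_iff hx).1 (hf x hx)
  rw [kos_Dv_der hW hx hg e hv, h0, map_zero, zero_add, Dv_eq_fderiv hx hg.differentiableAt e hv']

theorem kos_dM {n : ℕ} {X : Set E} (hX : Mfd n X) {V : E → E} (hV : Gen X V) {u : E → F} (hu : AnalyticOn ℂ u X)
    {x v : E} (hx : x ∈ X) (hv : v ∈ Tan X x) (t : ℝ) :
    HasDerivAt (fun s => Dv X (fun y => u (fl X V s y)) x v) (Dv X (fun y => der X V u (fl X V t y)) x v) t := by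
  have hφ := hV.isFlow
  have h1 : ∀ s, DifferentiableWithinAt ℂ (fl X V s) X x := fun s => (hφ.an s x hx).differentiableWithinAt.mono
    (subset_insert _ _)
  have h2 : ∀ s, ∀ᶠ y in 𝓝[X] x, fl X V s y ∈ X := fun s => eventually_mem_nhdsWithin.mono (hφ.maps s)
  have h3 : ∀ {w : E → F}, AnalyticOn ℂ w X → ∀ s, Dv X (fun y => w (fl X V s y)) x v =
      Dv X w (fl X V s x) (Dv X (fl X V s) x v) := fun hw s =>
    Dv_comp (h1 s) (hw.differentiableOn _ (hφ.maps s hx)) (h2 s) hv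
  obtain ⟨g, hg, e⟩ := (anW_iff (hφ.maps t hx)).1 (hu _ (hφ.maps t hx))
  have h4 : Tendsto (fun s => fl X V s x) (𝓝 t) (𝓝[X] (fl X V t x)) :=
    tendsto_nhdsWithin_iff.2 ⟨(hφ.hasDerivAt hx t).continuousAt, .of_forall fun s => hφ.maps s hx⟩
  have h7 : HasFDerivAt (fun p : E × E => fderiv ℂ g p.1) _ (fl X V t x, Dv X (fl X V t) x v) :=
    HasFDerivAt.comp (f := Prod.fst) (fl X V t x, Dv X (fl X V t) x v) hg.fderiv.differentiableAt.hasFDerivAt
      hasFDerivAt_fst
  have h6 := HasFDerivAt.clm_apply (E := E × E) h7 hasFDerivAt_snd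
  have h5 := (h6.restrictScalars ℝ).comp_hasDerivAt t ((hφ.hasDerivAt hx t).prodMk (hV.Dv_fl hX hx hv t))
  refine (h5.congr_of_eventuallyEq ?_).congr_deriv ?_
  · filter_upwards [h4.eventually (eventually_eventually_nhdsWithin.2 e),
      h4.eventually (nhdsWithin_le_nhds hg.eventually_analyticAt)] with s k1 k2
    rw [h3 hu, Dv_eq_fderiv (hφ.maps s hx) k2.differentiableAt k1 (Dv_mem_tan (h1 s) (h2 s) hv)]
    rfl
  · rw [h3 (der_an hX hV.vf hu), kos_Dv_der hV.vf (hφ.maps t hx) hg e (Dv_mem_tan (h1 t) (h2 t) hv),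
      (hg.contDiffAt (n := 2)).isSymmSndFDerivAt (by simp), add_comm]
    rfl

theorem kos_du {X : Set E} {V : E → E} (hV : Gen X V) {u : E → F} (hu : AnalyticOn ℂ u X)
    {x : E} (hx : x ∈ X) (t : ℝ) : HasDerivAt (fun s => u (fl X V s x)) (der X V u (fl X V t x)) t :=
  hasDerivAt_comp_curve (hV.isFlow.hasDerivAt hx t) (.of_forall fun s => hV.isFlow.maps s hx)
    (hu.differentiableOn _ (hV.isFlow.maps t hx))

theorem kos_der_add {n : ℕ} {X : Set E} (hX : Mfd n X) {A B : E → E} (hA : VF X A) (hB : VF X B) {u : E → F}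
    (hu : AnalyticOn ℂ u X) {x v : E} (hx : x ∈ X) (hv : v ∈ Tan X x) :
    Dv X (der X (A + B) u) x v = Dv X (der X A u) x v + Dv X (der X B u) x v := by
  rw [← Dv_add ((der_an hX hA hu).differentiableOn x hx) ((der_an hX hB hu).differentiableOn x hx) hv]
  exact congrArg (fun w => Dv X w x v) (funext fun y => map_add _ _ _)

theorem kos_der_smul {n : ℕ} {X : Set E} (hX : Mfd n X) {A : E → E} (hA : VF X A) (c : ℂ) {u : E → F}
    (hu : AnalyticOn ℂ u X) {x v : E} (hx : x ∈ X) (hv : v ∈ Tan X x) :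
    Dv X (der X (c • A) u) x v = c • Dv X (der X A u) x v := by
  rw [← Dv_const_smul c ((der_an hX hA hu).differentiableOn x hx) hv]
  exact congrArg (fun w => Dv X w x v) (funext fun y => map_smul _ _ _)

theorem kos_der_br {n : ℕ} {X : Set E} (hX : Mfd n X) {A B : E → E} (hA : VF X A) (hB : VF X B) {u : E → F}
    (hu : AnalyticOn ℂ u X) {x v : E} (hx : x ∈ X) (hv : v ∈ Tan X x) :
    Dv X (der X (br X A B) u) x v = Dv X (der X A (der X B u)) x v - Dv X (der X B (der X A u)) x v := by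
  rw [← Dv_sub ((der_an hX hA (der_an hX hB hu)).differentiableOn x hx)
    ((der_an hX hB (der_an hX hA hu)).differentiableOn x hx) hv,
    Dv_congr hx (eventually_mem_nhdsWithin.mono fun y hy => der_br hX hA hB hu hy)]

end Crest.Agent.R264
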