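import Crest.Agent.R264.Defs

set_option autoImplicit false
set_option linter.unusedSectionVars false
open Set Filter Topology Metric Complex Matrix
open scoped ComplexConjugate

namespace Crest.Agent.R264

variable {ι : Type} [Fintype ι] [DecidableEq ι]

/-- Jacobi's formula -/
theorem kos_det {X : ℝ → Matrix ι ι ℂ} {X' : Matrix ι ι ℂ} {r : ℝ}
    (h : ∀ i j, HasDerivAt (fun s => X s i j) (X' i j) r) :
    HasDerivAt (fun s => (X s).det) ((adjugate (X r) * X').trace) r := by
  have h1 : HasDerivAt (fun s => ∑ σ : Equiv.Perm ι, ((Equiv.Perm.sign σ : ℤ) : ℂ) * ∏ i, X s (σ i) i)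
      (∑ σ : Equiv.Perm ι, ((Equiv.Perm.sign σ : ℤ) : ℂ) *
        ∑ i, (∏ j ∈ Finset.univ.erase i, X r (σ j) j) • X' (σ i) i) r :=
    HasDerivAt.fun_sum fun σ _ =>
      (HasDerivAt.fun_finsetProd (f := fun i s => X s (σ i) i) fun i _ => h (σ i) i).const_mul _
  have h2 : (adjugate (X r) * X').trace = ∑ σ : Equiv.Perm ι, ((Equiv.Perm.sign σ : ℤ) : ℂ) *
      ∑ i, (∏ j ∈ Finset.univ.erase i, X r (σ j) j) • X' (σ i) i := by
    simp only [Finset.mul_sum]
    rw [Finset.sum_comm]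
    refine Finset.sum_congr rfl fun i _ => ?_
    have h3 : (adjugate (X r) * X').diag i = cramer (X r) (fun k => X' k i) i := by
      rw [cramer_eq_adjugate_mulVec]
      rfl
    rw [h3, cramer_apply, det_apply']
    refine Finset.sum_congr rfl fun σ _ => ?_
    congr 1
    rw [← Finset.mul_prod_erase _ _ (Finset.mem_univ i), updateCol_self, smul_eq_mul, mul_comm]
    congr 1
    exact Finset.prod_congr rfl fun j hj => updateCol_ne (Finset.mem_erase.1 hj).1
  rw [h2]
  simpa only [det_apply'] using h1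

theorem kos_mul {X Y : ℝ → Matrix ι ι ℂ} {X' Y' : Matrix ι ι ℂ} {r : ℝ}
    (hX : ∀ i j, HasDerivAt (fun s => X s i j) (X' i j) r)
    (hY : ∀ i j, HasDerivAt (fun s => Y s i j) (Y' i j) r) (i j : ι) :
    HasDerivAt (fun s => (X s * Y s) i j) ((X' * Y r + X r * Y') i j) r := by
  simp only [Matrix.add_apply, mul_apply, ← Finset.sum_add_distrib]
  exact HasDerivAt.fun_sum fun k _ => (hX i k).fun_mul (hY k j)

/-- second derivative of the determinant at the identity -/
theorem kos_det2 {X X' : ℝ → Matrix ι ι ℂ} {Q : Matrix ι ι ℂ} (h0 : X 0 = 1)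
    (h : ∀ i j, HasDerivAt (fun s => X s i j) (X' 0 i j) 0) (h' : ∀ i j, HasDerivAt (fun s => X' s i j) (Q i j) 0) :
    HasDerivAt (fun s => (adjugate (X s) * X' s).trace) ((X' 0).trace ^ 2 - (X' 0 * X' 0).trace + Q.trace) 0 := by
  have hex : ∀ i j, ∃ y, HasDerivAt (fun s => adjugate (X s) i j) y 0 := fun i j => by
    have h1 := kos_det (X := fun s => (X s).updateRow j (Pi.single i 1)) (X' := (X' 0).updateRow j 0) (r := 0)
      fun a b => by
        by_cases ha : a = j
        · subst ha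
          simp only [updateRow_self, Pi.zero_apply]
          exact hasDerivAt_const _ _
        · simp only [updateRow_ne ha]
          exact h a b
    simp only [adjugate_apply]
    exact ⟨_, h1⟩
  choose Y hY using hex
  have e : (of Y : Matrix ι ι ℂ) = (X' 0).trace • 1 - X' 0 := by
    ext i j
    have h1 := kos_mul (X' := of Y) hY h i j
    have h2 := (kos_det h).mul_const ((1 : Matrix ι ι ℂ) i j)
    simp only [adjugate_mul, Matrix.smul_apply, smul_eq_mul] at h1
    have h3 := h1.unique h2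
    rw [h0, adjugate_one, mul_one, one_mul, Matrix.add_apply] at h3
    rw [Matrix.sub_apply, Matrix.smul_apply, smul_eq_mul, ← h3, add_sub_cancel_right]
  have h1 := HasDerivAt.fun_sum (u := Finset.univ) fun i _ => kos_mul (X' := of Y) hY h' i i
  refine h1.congr_deriv (Eq.symm ?_)
  change _ = (of Y * X' 0 + adjugate (X 0) * Q).trace
  rw [e, h0, adjugate_one, one_mul, trace_add, sub_mul, trace_sub, smul_mul, one_mul, trace_smul, smul_eq_mul, sq]

theorem kos_max {R R' : ℝ → ℝ} {r : ℝ} (hm : IsLocalMax R 0) (h : ∀ t, HasDerivAt R (R' t) t)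
    (h' : HasDerivAt R' r 0) : R' 0 = 0 ∧ r ≤ 0 := by
  have e : deriv R = R' := funext fun t => (h t).deriv
  have h0 : R' 0 = 0 := hm.hasDerivAt_eq_zero (h 0)
  refine ⟨h0, le_of_not_gt fun hr => ?_⟩
  have h1 := isLocalMin_of_deriv_deriv_pos (f := R) (by rwa [e, h'.deriv]) (by rw [e, h0]) (h 0).continuousAt
  have h2 : R =ᶠ[𝓝 0] fun _ => R 0 := (hm.and h1).mono fun t ht => le_antisymm ht.1 ht.2
  have h3 := h2.deriv.deriv_eq
  rw [e, h'.deriv] at h3
  simp [hr.ne'] at h3

theorem kos_calc {D D' u u' : ℝ → ℂ} {d c : ℂ} (h : ∀ t, HasDerivAt D (D' t) t) (h' : HasDerivAt D' d 0)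
    (hu : ∀ t, HasDerivAt u (u' t) t) (hu' : HasDerivAt u' c 0) (h0 : D 0 = 1) (u0 : u 0 = 0)
    (hle : ∀ᶠ t in 𝓝 (0 : ℝ), ‖D t‖ ≤ 1 - ‖u t‖ ^ 2) :
    (D' 0).re = 0 ∧ (d - D' 0 ^ 2).re + 2 * ‖u' 0‖ ^ 2 ≤ 0 := by
  set p : ℂ := -(I * (D' 0).im)
  have he : ∀ t : ℝ, HasDerivAt (fun s : ℝ => cexp (p * s)) (cexp (p * t) * p) t := fun t => by
    simpa using ((Complex.ofRealCLM.hasDerivAt (x := t)).const_mul p).cexp
  have hn : ∀ t : ℝ, ‖cexp (p * t)‖ = 1 := fun t => by simp [p, norm_exp]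
  have hc : ∀ {v : ℝ → ℂ} {a : ℂ} {t : ℝ}, HasDerivAt v a t → HasDerivAt (fun s => conj (v s)) (conj a) t :=
    fun hv => conjCLE.hasFDerivAt.comp_hasDerivAt _ hv
  have hr : ∀ {v : ℝ → ℂ} {a : ℂ} {t : ℝ}, HasDerivAt v a t → HasDerivAt (fun s => (v s).re) a.re t :=
    fun hv => reCLM.hasFDerivAt.comp_hasDerivAt _ hv
  obtain ⟨k1, k2⟩ := kos_max (R := fun t => (cexp (p * t) * D t + u t * conj (u t)).re) (hle.mono fun t ht => by
      have h1 := (re_le_norm (cexp (p * t) * D t)).trans_eq (by rw [norm_mul, hn, one_mul])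
      simp only [add_re, mul_conj, normSq_eq_norm_sq, ofReal_re, h0, u0, ofReal_zero, mul_zero, Complex.exp_zero,
        mul_one, one_re, norm_zero]
      linarith)
    (fun t => hr (((he t).fun_mul (h t)).fun_add ((hu t).fun_mul (hc (hu t)))))
    (hr (((((he 0).mul_const p).fun_mul (h 0)).fun_add ((he 0).fun_mul h')).fun_add
      ((hu'.fun_mul (hc (hu 0))).fun_add ((hu 0).fun_mul (hc hu')))))
  simp only [h0, u0, ofReal_zero, mul_zero, Complex.exp_zero, mul_one, one_mul, map_zero, zero_mul, add_zero,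
    zero_add, mul_conj, normSq_eq_norm_sq, add_re, ofReal_re] at k1 k2
  have k3 : (D' 0).re = 0 := by simpa [p] using k1
  refine ⟨k3, ?_⟩
  simp only [p, sq (D' 0), sub_re, mul_re, neg_re, neg_im, mul_im, I_re, I_im, ofReal_re, ofReal_im, k3] at k2 ⊢
  linarith

end Crest.Agent.R264
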