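import Crest.Agent.R264.Base.Montel

set_option autoImplicit false
set_option linter.unusedSectionVars false
open Set Filter Topology Metric Complex

namespace Crest.Agent.R264

variable {E F G : Type}
  [NormedAddCommGroup E] [NormedSpace ℂ E] [NormedSpace ℝ E] [IsScalarTower ℝ ℂ E] [FiniteDimensional ℂ E]
  [NormedAddCommGroup F] [NormedSpace ℂ F] [NormedSpace ℝ F] [IsScalarTower ℝ ℂ F] [FiniteDimensional ℂ F]
  [NormedAddCommGroup G] [NormedSpace ℂ G] [NormedSpace ℝ G] [IsScalarTower ℝ ℂ G] [FiniteDimensional ℂ G]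

open scoped ComplexConjugate

/-- admissible families of functions -/
def KF {k : ℕ} (X : Set E) (g : Fin k → E → ℂ) : Prop := ∀ i, AnalyticOn ℂ (g i) X ∧ ∀ z ∈ X, ‖g i z‖ ≤ 1

/-- their Jacobian -/
noncomputable def KJ {k : ℕ} (X : Set E) (x : E) (ξ : Fin k → E) (g : Fin k → E → ℂ) : ℂ :=
  (Matrix.of fun i j => Dv X (g i) x (ξ j)).det

theorem kos_exmax {n k : ℕ} {X : Set E} (hX : Mfd n X) {x : E} (hx : x ∈ X) {ξ : Fin k → E}
    (hξ : ∀ j, ξ j ∈ Tan X x) : ∃ f, KF X f ∧ ∀ g, KF X g → ‖KJ X x ξ g‖ ≤ ‖KJ X x ξ f‖ := by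
  let J := {g : Fin k → E → ℂ // KF X g}
  let _ : Preorder J := Preorder.lift fun g => ‖KJ X x ξ g.1‖
  have : Nonempty J := ⟨⟨0, fun i => ⟨analyticOn_const, fun z _ => by simp⟩⟩⟩
  have : IsDirectedOrder J := ⟨fun a b => (le_total ‖KJ X x ξ a.1‖ ‖KJ X x ξ b.1‖).elim
    (fun h => ⟨b, h, le_rfl⟩) fun h => ⟨a, le_rfl, h⟩⟩
  let U : Ultrafilter J := .of atTop
  choose f hf hl using fun i => montel hX U (f := fun g => g.1 i) fun y _ => ⟨univ, univ_mem, 1, .of_forall fun g =>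
    ⟨(g.2 i).1.mono inter_subset_left, fun z hz => (g.2 i).2 z hz.1⟩⟩
  refine ⟨f, fun i => ⟨hf i, fun z hz => le_of_tendsto' ((hl i).tendsto_at hz).norm fun g => (g.2 i).2 z hz⟩,
    fun g hg => ?_⟩
  have h1 : Tendsto (fun g : J => KJ X x ξ g.1) U (𝓝 (KJ X x ξ f)) :=
    (continuous_id.matrix_det.tendsto _).comp (tendsto_pi_nhds.2 fun i => tendsto_pi_nhds.2 fun j =>
      Dv_tendsto hX (fun y _ => ⟨univ, univ_mem, .of_forall fun g => (g.2 i).1.mono inter_subset_left⟩) (hl i) hx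
        (hξ j))
  exact ge_of_tendsto h1.norm ((Ultrafilter.of_le atTop) (eventually_ge_atTop (⟨g, hg⟩ : J)))

theorem kos_mob {k : ℕ} {X : Set E} {x : E} (hx : x ∈ X) {ξ : Fin k → E} (hξ : ∀ j, ξ j ∈ Tan X x)
    {g : Fin k → E → ℂ} (hg : KF X g) {i : Fin k} (hi : ‖g i x‖ < 1) :
    ∃ g', KF X g' ∧ ‖KJ X x ξ g‖ = (1 - ‖g i x‖ ^ 2) * ‖KJ X x ξ g'‖ := by
  set a := g i x
  have h0 : ∀ w : ℂ, ‖w‖ ≤ 1 → 1 - conj a * w ≠ 0 := fun w hw e => by
    have := congrArg norm (sub_eq_zero.1 e)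
    rw [norm_mul, norm_one, norm_conj] at this
    nlinarith [norm_nonneg a]
  have h1 : 0 < 1 - ‖a‖ ^ 2 := by nlinarith [norm_nonneg a]
  have hd : HasDerivAt (fun w => (w - a) / (1 - conj a * w)) (1 - conj a * a)⁻¹ a := by
    refine (((hasDerivAt_id' a).sub_const a).fun_div (((hasDerivAt_id' a).const_mul (conj a)).const_sub 1)
      (h0 a hi.le)).congr_deriv ?_
    have := h0 a hi.le
    field_simp
    ring
  refine ⟨Function.update g i fun z => (g i z - a) / (1 - conj a * g i z), fun j => ?_, ?_⟩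
  · rcases eq_or_ne j i with rfl | hj
    · rw [Function.update_self]
      refine ⟨((hg j).1.sub analyticOn_const).div (analyticOn_const.sub (analyticOn_const.mul (hg j).1))
        fun z hz => h0 _ ((hg j).2 z hz), fun z hz => ?_⟩
      have h2 := (hg j).2 z hz
      rw [norm_div, div_le_one (norm_pos_iff.2 (h0 _ h2)), ← sq_le_sq₀ (norm_nonneg _) (norm_nonneg _)]
      rw [← sq_le_one_iff₀ (norm_nonneg _)] at h2
      simp only [Complex.sq_norm, normSq_apply, sub_re, sub_im, mul_re, mul_im, one_re, one_im, conj_re,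
        conj_im] at h1 h2 ⊢
      nlinarith [mul_nonneg h1.le (sub_nonneg.2 h2)]
    · rw [Function.update_of_ne hj]
      exact hg j
  · have e : (Matrix.of fun l j => Dv X (Function.update g i (fun z => (g i z - a) / (1 - conj a * g i z)) l) x (ξ j)) =
        (Matrix.of fun l j => Dv X (g l) x (ξ j)).updateRow i
          ((1 - conj a * a)⁻¹ • (Matrix.of fun l j => Dv X (g l) x (ξ j)) i) := by
      ext l j
      rcases eq_or_ne l i with rfl | hl
      · rw [Matrix.updateRow_self, Matrix.of_apply, Function.update_self]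
        exact Dv_of_has (hd.comp_hasFDerivWithinAt x ((hg l).1.differentiableOn x hx).hasFDerivWithinAt) (hξ j)
      · rw [Matrix.updateRow_ne hl, Matrix.of_apply, Function.update_of_ne hl, Matrix.of_apply]
    rw [KJ, KJ, e, Matrix.det_updateRow_smul, Matrix.updateRow_eq_self, norm_mul, norm_inv, conj_mul',
      ← ofReal_pow, ← ofReal_one, ← ofReal_sub, norm_real, Real.norm_of_nonneg h1.le, mul_inv_cancel_left₀ h1.ne']

theorem kos_lt {n : ℕ} {X : Set E} (hX : Mfd n X) {x v : E} (hx : x ∈ X) {f : E → ℂ}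
    (hf : AnalyticOn ℂ f X) (hb : ∀ z ∈ X, ‖f z‖ ≤ 1) (hv : Dv X f x v ≠ 0) : ‖f x‖ < 1 := by
  refine (hb x hx).lt_of_ne fun e => ?_
  rcases open_map hX hx (hf x hx) with h | h
  · exact hv (by rw [Dv_congr hx h, Dv_const])
  · have h1 : closedBall (0 : ℂ) 1 ∈ 𝓝 (f x) :=
      h (eventually_mem_nhdsWithin.mono fun z hz => mem_closedBall_zero_iff.2 (hb z hz))
    rw [← mem_interior_iff_mem_nhds, interior_closedBall _ one_ne_zero, mem_ball_zero_iff] at h1
    exact h1.ne e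

theorem kos_ext {n : ℕ} {X : Set E} (hX : CM n X) {x : E} (hx : x ∈ X) {Ξ : Submodule ℂ E} (hΞ : Ξ ≤ Tan X x) :
    ∃ (k : ℕ) (ξ : Module.Basis (Fin k) ℂ Ξ) (f : Fin k → E → ℂ), KF X f ∧ (∀ i, f i x = 0) ∧
      (∀ i (v : Ξ), Dv X (f i) x v = ξ.repr v i) ∧ ∀ g, KF X g → ‖KJ X x (fun j => ξ j) g‖ ≤ 1 := by
  set b := Module.finBasis ℂ Ξ
  have hb : ∀ j, (b j : E) ∈ Tan X x := fun j => hΞ (b j).2
  obtain ⟨f, hf, hm⟩ := kos_exmax hX.mfd hx hb
  have h0 : KJ X x (fun j => b j) f ≠ 0 := by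
    obtain ⟨ℓ, hℓ⟩ := LinearMap.exists_extend b.equivFun.toLinearMap
    obtain ⟨C, C0, hC⟩ := (ℓ.toContinuousLinearMap.lipschitz.isBounded_image hX.bdd).exists_pos_norm_le
    have := hm (fun i z => ((C⁻¹ : ℝ) : ℂ) • ℓ.toContinuousLinearMap z i) fun i => ⟨fun z _ =>
      ((((C⁻¹ : ℝ) : ℂ) • (ContinuousLinearMap.proj i).comp ℓ.toContinuousLinearMap).analyticAt z).analyticWithinAt,
      fun z hz => by
        rw [norm_smul, norm_real, Real.norm_of_nonneg (by positivity), inv_mul_le_one₀ C0]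
        exact (norm_le_pi_norm _ i).trans (hC _ ⟨z, hz, rfl⟩)⟩
    refine norm_pos_iff.1 (lt_of_lt_of_le (norm_pos_iff.2 ?_) this)
    have e : (Matrix.of fun i j => Dv X (fun z => ((C⁻¹ : ℝ) : ℂ) • ℓ.toContinuousLinearMap z i) x (b j)) =
        ((C⁻¹ : ℝ) : ℂ) • 1 := by
      ext i j
      refine (Dv_of_has (((C⁻¹ : ℝ) : ℂ) • (ContinuousLinearMap.proj i).comp
        ℓ.toContinuousLinearMap).hasFDerivWithinAt (hb j)).trans ?_
      have := LinearMap.congr_fun hℓ (b j)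
      simp only [LinearMap.comp_apply, Submodule.subtype_apply] at this
      simp [this, Matrix.one_apply, Finsupp.single_apply, eq_comm]
    rw [KJ, e, Matrix.det_smul, Matrix.det_one, mul_one]
    exact pow_ne_zero _ (ofReal_ne_zero.2 (by positivity))
  let L : (Fin (Module.finrank ℂ Ξ) → E → ℂ) → Ξ →ₗ[ℂ] Fin (Module.finrank ℂ Ξ) → ℂ := fun g =>
    LinearMap.pi fun i => (Dv X (g i) x : E →ₗ[ℂ] ℂ).comp Ξ.subtype
  have hL : ∀ (c : Module.Basis (Fin (Module.finrank ℂ Ξ)) ℂ Ξ) g, KJ X x (fun j => c j) g =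
      (LinearMap.toMatrix c (Pi.basisFun ℂ _) (L g)).det := fun c g => by
    rw [KJ]
    congr 1
    ext i j
    rw [LinearMap.toMatrix_apply]
    rfl
  have hu : IsUnit (LinearMap.toMatrix b (Pi.basisFun ℂ _) (L f)).det := hL b f ▸ h0.isUnit
  set ξ := Module.Basis.ofEquivFun (LinearEquiv.ofIsUnitDet hu)
  have hξ : ∀ i (v : Ξ), Dv X (f i) x v = ξ.repr v i := fun i v => rfl
  have h1 : ∀ g, KJ X x (fun j => b j) g = KJ X x (fun j => ξ j) g * (ξ.toMatrix b).det := fun g => by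
    rw [hL, hL, ← Matrix.det_mul, linearMap_toMatrix_mul_basis_toMatrix]
  have h2 : KJ X x (fun j => ξ j) f = 1 := by
    refine (congrArg Matrix.det (Matrix.ext fun i j => ?_)).trans Matrix.det_one
    simp [hξ, Matrix.one_apply, Finsupp.single_apply, eq_comm]
  refine ⟨_, ξ, f, hf, fun i => ?_, hξ, fun g hg => ?_⟩
  · obtain ⟨g, hg, e⟩ := kos_mob hx hb hf (kos_lt hX.mfd hx (hf i).1 (hf i).2 (v := ξ i) (by simp [hξ]))
    have := hm g hg
    have h3 := norm_pos_iff.2 h0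
    rw [← norm_eq_zero, ← pow_eq_zero_iff two_ne_zero]
    refine le_antisymm (le_of_not_gt fun h => ?_) (by positivity)
    have h4 : 0 < ‖KJ X x (fun j => b j) g‖ := (norm_nonneg _).lt_of_ne fun h4 => h3.ne' (by rw [e, ← h4, mul_zero])
    linarith [mul_pos h h4]
  · have := hm g hg
    rw [h1 f, h2, one_mul] at h0 this
    rw [h1 g, norm_mul] at this
    exact (mul_le_iff_le_one_left (norm_pos_iff.2 h0)).1 this

end Crest.Agent.R264
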