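import Crest.Agent.R264.Kos.Det
import Crest.Agent.R264.Kos.Der
import Crest.Agent.R264.Kos.Ext

set_option autoImplicit false
set_option linter.unusedSectionVars false
open Set Filter Topology Metric Complex

namespace Crest.Agent.R264

variable {E F G : Type}
  [NormedAddCommGroup E] [NormedSpace ℂ E] [NormedSpace ℝ E] [IsScalarTower ℝ ℂ E] [FiniteDimensional ℂ E]
  [NormedAddCommGroup F] [NormedSpace ℂ F] [NormedSpace ℝ F] [IsScalarTower ℝ ℂ F] [FiniteDimensional ℂ F]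
  [NormedAddCommGroup G] [NormedSpace ℂ G] [NormedSpace ℝ G] [IsScalarTower ℝ ℂ G] [FiniteDimensional ℂ G]

/-- the matrix of `D (der V u)` -/
noncomputable def KP {k : ℕ} (X : Set E) (x : E) (ξ : Fin k → E) (u : Fin k → E → ℂ) (V : E → E) :
    Matrix (Fin k) (Fin k) ℂ := Matrix.of fun i j => Dv X (der X V (u i)) x (ξ j)

theorem kos_second {n k : ℕ} {X : Set E} (hX : Mfd n X) {x : E} (hx : x ∈ X) {ξ : Fin k → E}
    (hξ : ∀ j, ξ j ∈ Tan X x) {f : Fin k → E → ℂ} (hf : KF X f) (h0 : ∀ i, f i x = 0)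
    (h1 : (Matrix.of fun i j => Dv X (f i) x (ξ j)) = 1) (hm : ∀ g, KF X g → ‖KJ X x ξ g‖ ≤ 1) {V : E → E}
    (hV : Gen X V) : (KP X x ξ f V).trace.re = 0 ∧
      ((KP X x ξ (fun i => der X V (f i)) V).trace - (KP X x ξ f V * KP X x ξ f V).trace).re ≤ 0 ∧ ∀ i,
      ((KP X x ξ (fun i => der X V (f i)) V).trace - (KP X x ξ f V * KP X x ξ f V).trace).re +
        2 * ‖der X V (f i) x‖ ^ 2 ≤ 0 := by
  have hφ := hV.isFlow
  have z0 : ∀ u : E → ℂ, Dv X (fun y => u (fl X V 0 y)) x = Dv X u x := fun u =>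
    Dv_congr hx (eventually_mem_nhdsWithin.mono fun y hy => congrArg u (hφ.zero y hy))
  have a1 := fun i => der_an hX hV.vf (hf i).1
  have hg : ∀ t, KF X fun i y => f i (fl X V t y) := fun t i =>
    ⟨(hf i).1.comp (hφ.an t) (hφ.maps t), fun z hz => (hf i).2 _ (hφ.maps t hz)⟩
  let M : ℝ → Matrix (Fin k) (Fin k) ℂ := fun s => .of fun i j => Dv X (fun y => f i (fl X V s y)) x (ξ j)
  let M' : ℝ → Matrix (Fin k) (Fin k) ℂ := fun s => .of fun i j => Dv X (fun y => der X V (f i) (fl X V s y)) x (ξ j)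
  have e0 : M 0 = 1 := by simp only [M, z0, h1]
  have e1 : M' 0 = KP X x ξ f V := by simp only [M', z0, KP]
  have d1 : ∀ t i j, HasDerivAt (fun s => M s i j) (M' t i j) t := fun t i j => kos_dM hX hV (hf i).1 hx (hξ j) t
  have d2 := kos_det2 (Q := KP X x ξ (fun i => der X V (f i)) V) e0 (d1 0) fun i j =>
    (kos_dM hX hV (a1 i) hx (hξ j) 0).congr_deriv (by rw [z0]; rfl)
  have key : ∀ {u u' : ℝ → ℂ} {c : ℂ}, (∀ t, HasDerivAt u (u' t) t) → HasDerivAt u' c 0 → u 0 = 0 →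
      (∀ᶠ t in 𝓝 (0 : ℝ), ‖(M t).det‖ ≤ 1 - ‖u t‖ ^ 2) → (KP X x ξ f V).trace.re = 0 ∧
      ((KP X x ξ (fun i => der X V (f i)) V).trace - (KP X x ξ f V * KP X x ξ f V).trace).re +
        2 * ‖u' 0‖ ^ 2 ≤ 0 := fun hu hu' u0 hle => by
    have := kos_calc (fun t => kos_det (d1 t)) d2 hu hu' (by rw [e0, Matrix.det_one]) u0 hle
    rw [e0, e1, Matrix.adjugate_one, one_mul] at this
    refine ⟨this.1, le_of_eq_of_le ?_ this.2⟩
    congr 2
    ring
  obtain ⟨k1, k2⟩ := key (u := fun _ => 0) (u' := fun _ => 0) (fun t => hasDerivAt_const t 0) (hasDerivAt_const 0 0) rfl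
    (.of_forall fun t => (hm _ (hg t)).trans_eq (by simp))
  refine ⟨k1, by simpa using k2, fun i => ?_⟩
  have u0 : f i (fl X V 0 x) = 0 := by rw [hφ.zero x hx, h0]
  have := (key (kos_du hV (hf i).1 hx) (kos_du hV (a1 i) hx 0) u0 (by
    filter_upwards [(kos_du hV (hf i).1 hx 0).continuousAt.norm.eventually (gt_mem_nhds (a := 1)
      (by simp [u0]))] with t ht
    obtain ⟨g', hg', e⟩ := kos_mob hx hξ (hg t) (i := i) ht
    refine e.trans_le (mul_le_of_le_one_right ?_ (hm g' hg'))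
    nlinarith [norm_nonneg (f i (fl X V t x))])).2
  rwa [hφ.zero x hx] at this

theorem kos_main {n : ℕ} {X : Set E} (hX : CM n X) {x : E} (hx : x ∈ X) {Ξ : Submodule ℂ E} (hΞ : Ξ ≤ Tan X x) :
    ∃ ψ : (E → E) → ℝ, (∀ A B, Gen X A → Gen X B → ψ (A + B) = ψ A + ψ B) ∧
      (∀ (c : ℝ) A, Gen X A → ψ (c • A) = c * ψ A) ∧
      (∀ A B, Gen X A → Gen X B → A x + I • B x = 0 → ∀ Λ : Ξ →ₗ[ℂ] Ξ,
        (∀ v : Ξ, (Λ v : E) = Dv X A x v + I • Dv X B x v) → LinearMap.trace ℂ Ξ Λ = I * (ψ A : ℂ) - (ψ B : ℂ)) ∧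
      ∀ A B, Gen X A → Gen X B → B x = I • A x → (∀ v ∈ Ξ, Dv X A x v + I • Dv X B x v ∈ Ξ) →
        0 ≤ ψ (br X A B) ∧ (A x ∈ Ξ → A x ≠ 0 → 0 < ψ (br X A B)) := by
  obtain ⟨k, ξ, f, hf, h0, h1, hm⟩ := kos_ext hX hx hΞ
  have hM := hX.mfd
  have hξ : ∀ j, (ξ j : E) ∈ Tan X x := fun j => hΞ (ξ j).2
  have hs := fun V hV => kos_second hM hx hξ hf h0 (Matrix.ext fun i j => by
    simp [h1, Matrix.one_apply, Finsupp.single_apply, eq_comm]) hm (V := V) hV
  set P := KP X x (fun j => (ξ j : E))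
  have hP : ∀ V, Gen X V → (P f V).trace = I * (P f V).trace.im := fun V hV =>
    Complex.ext (by simp [(hs V hV).1]) (by simp)
  have a1 : ∀ {u : Fin k → E → ℂ}, (∀ i, AnalyticOn ℂ (u i) X) → ∀ {A B}, VF X A → VF X B →
      P u (A + B) = P u A + P u B := fun hu A B hA hB => Matrix.ext fun i j => kos_der_add hM hA hB (hu i) hx (hξ j)
  have a2 : ∀ {u : Fin k → E → ℂ}, (∀ i, AnalyticOn ℂ (u i) X) → ∀ (c : ℂ) {A}, VF X A →
      P u (c • A) = c • P u A := fun hu c A hA => Matrix.ext fun i j => kos_der_smul hM hA c (hu i) hx (hξ j)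
  have a3 : ∀ {u : Fin k → E → ℂ}, (∀ i, AnalyticOn ℂ (u i) X) → ∀ {A B}, Gen X A → Gen X B → A x + I • B x = 0 →
      ∀ Λ : Ξ →ₗ[ℂ] Ξ, (∀ v : Ξ, (Λ v : E) = Dv X A x v + I • Dv X B x v) → P u A + I • P u B =
        (Matrix.of fun i j => Dv X (u i) x (ξ j)) * LinearMap.toMatrix ξ ξ Λ := fun {u} hu A B hA hB h Λ hΛ => by
    rw [← a2 hu I hB.vf, ← a1 hu hA.vf (hB.vf.smul I)]
    ext i j
    have e : Dv X (A + I • B) x (ξ j) = Λ (ξ j) := by
      rw [hΛ, ← Dv_const_smul I (hB.an.differentiableOn x hx) (hξ j)]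
      exact Dv_add (hA.an.differentiableOn x hx) ((hB.vf.smul I).an.differentiableOn x hx) (hξ j)
    refine (kos_Dv_zero (hA.vf.add (hB.vf.smul I)) (hu i) hx h (hξ j) (e ▸ hΞ (Λ (ξ j)).2)).trans ?_
    rw [e, ← ξ.sum_repr (Λ (ξ j)), Matrix.mul_apply, Submodule.coe_sum, map_sum]
    exact Finset.sum_congr rfl fun l _ => by simp [LinearMap.toMatrix_apply, mul_comm]
  have hf1 := fun i => (hf i).1
  have a4 : ∀ {A B}, Gen X A → Gen X B → A x + I • B x = 0 → ∀ Λ : Ξ →ₗ[ℂ] Ξ,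
      (∀ v : Ξ, (Λ v : E) = Dv X A x v + I • Dv X B x v) → P f A + I • P f B = LinearMap.toMatrix ξ ξ Λ :=
    fun hA hB h Λ hΛ => by
      rw [a3 hf1 hA hB h Λ hΛ]
      exact (congrArg (· * _) (Matrix.ext fun i j => by
        simp [h1, Matrix.one_apply, Finsupp.single_apply, eq_comm])).trans (one_mul _)
  refine ⟨fun V => (P f V).trace.im, fun A B hA hB => by simp only [a1 hf1 hA.vf hB.vf, Matrix.trace_add, add_im],
    fun c A hA => ?_, fun A B hA hB h Λ hΛ => ?_, fun A B hA hB h hΛ => ?_⟩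
  · have : c • A = (c : ℂ) • A := funext fun y => (algebraMap_smul ℂ c (A y)).symm
    simp only [this, a2 hf1 c hA.vf, Matrix.trace_smul, smul_eq_mul, im_ofReal_mul]
  · beta_reduce
    rw [LinearMap.trace_eq_matrix_trace ℂ ξ, ← a4 hA hB h Λ hΛ, Matrix.trace_add, Matrix.trace_smul, ← hP A hA,
      smul_eq_mul]
    nth_rw 1 [hP B hB]
    rw [← mul_assoc, I_mul_I, neg_one_mul, sub_eq_add_neg]
  · have h' : A x + I • B x = 0 := by rw [h, smul_smul, I_mul_I, neg_one_smul, add_neg_cancel]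
    let Λ : Ξ →ₗ[ℂ] Ξ := ((Dv X A x : E →ₗ[ℂ] E) + I • (Dv X B x : E →ₗ[ℂ] E)).restrict hΛ
    have b1 := congrArg Matrix.trace (a3 (fun i => der_an hM hA.vf (hf1 i)) hA hB h' Λ fun v => rfl)
    have b2 := congrArg Matrix.trace (a3 (fun i => der_an hM hB.vf (hf1 i)) hA hB h' Λ fun v => rfl)
    have b3 : P f (br X A B) = P (fun i => der X B (f i)) A - P (fun i => der X A (f i)) B :=
      Matrix.ext fun i j => kos_der_br hM hA.vf hB.vf (hf1 i) hx (hξ j)
    rw [← a4 hA hB h' Λ fun v => rfl] at b1 b2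
    change _ = (P f A * _).trace at b1
    change _ = (P f B * _).trace at b2
    simp only [mul_add, Matrix.mul_smul, Matrix.trace_add, Matrix.trace_smul, smul_eq_mul] at b1 b2
    rw [Matrix.trace_mul_comm (P f B)] at b2
    have b4 : (P f (br X A B)).trace.im =
        -((P (fun i => der X A (f i)) A).trace - (P f A * P f A).trace).re -
          ((P (fun i => der X B (f i)) B).trace - (P f B * P f B).trace).re := by
      have c1 := congrArg re b1
      have c2 := congrArg im b2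
      rw [b3, Matrix.trace_sub]
      simp only [add_re, add_im, sub_re, sub_im, mul_re, mul_im, I_re, I_im] at c1 c2 ⊢
      linarith
    beta_reduce
    rw [b4]
    refine ⟨by linarith [(hs A hA).2.1, (hs B hB).2.1], fun h2 h3 => ?_⟩
    obtain ⟨i, hi⟩ : ∃ i, ξ.repr ⟨A x, h2⟩ i ≠ 0 := by
      by_contra! hc
      exact h3 (congrArg Subtype.val (ξ.repr.map_eq_zero_iff.1 (Finsupp.ext hc)))
    have : 0 < ‖der X A (f i) x‖ ^ 2 := pow_pos (norm_pos_iff.2 ((h1 i ⟨A x, h2⟩).trans_ne hi)) 2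
    linarith [(hs A hA).2.2 i, (hs B hB).2.1]

end Crest.Agent.R264
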